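import Vale.Agent.P129.H446.Main
import Vale.Agent.P129.H446.Statement

open Cardinal Vale.Agent.P129.H446

namespace Vale.Agent.Results.P129.DensityAlephOne

universe u

/-- Over the real and over the complex numbers, some Banach space of density `ℵ₁` has no separable
infinite-dimensional quotient if and only if some set of `ℵ₁` real numbers is not meagre. -/
theorem result (𝕜 : Type) [RCLike 𝕜] :
    (∃ (X : Type u) (_ : NormedAddCommGroup X) (_ : NormedSpace 𝕜 X) (_ : CompleteSpace X),
      dens X = aleph 1 ∧ ¬ HasSeparableQuotient 𝕜 X) ↔ nonMeagre = aleph 1 :=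
  densityAlephOne.{u} 𝕜

end Vale.Agent.Results.P129.DensityAlephOne
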