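import Vale.Agent.P129.H446.Main
import Vale.Agent.P129.H446.Statement

open Cardinal Vale.Agent.P129.H446

namespace Vale.Agent.Results.P129.Undecidable

universe u

/-- The separable quotient problem is undecidable.

(1) Over the real and over the complex numbers, some Banach space of density `ℵ₁` has no separable
infinite-dimensional quotient if and only if some set of `ℵ₁` real numbers is not meagre.

(2) If the continuum hypothesis holds then, over the real and over the complex numbers, there is an
infinite-dimensional Banach space without separable infinite-dimensional quotients.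

(3) If Lebesgue measure extends to a countably additive measure on all sets of real numbers then
every infinite-dimensional Banach space has a separable infinite-dimensional quotient. -/
theorem result :
    (∀ (𝕜 : Type) [RCLike 𝕜],
      (∃ (X : Type u) (_ : NormedAddCommGroup X) (_ : NormedSpace 𝕜 X) (_ : CompleteSpace X),
        dens X = aleph 1 ∧ ¬ HasSeparableQuotient 𝕜 X) ↔ nonMeagre = aleph 1) ∧
    (continuum.{0} = aleph 1 →
      ∀ (𝕜 : Type) [RCLike 𝕜],
        ∃ (X : Type u) (_ : NormedAddCommGroup X) (_ : NormedSpace 𝕜 X) (_ : CompleteSpace X),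
          ¬ FiniteDimensional 𝕜 X ∧ ¬ HasSeparableQuotient 𝕜 X) ∧
    (LebesgueExtends →
      ∀ (𝕜 : Type) [RCLike 𝕜] (X : Type u) [NormedAddCommGroup X] [NormedSpace 𝕜 X]
        [CompleteSpace X], ¬ FiniteDimensional 𝕜 X → HasSeparableQuotient 𝕜 X) := by
  refine ⟨fun 𝕜 _ => densityAlephOne.{u} 𝕜, fun hCH 𝕜 _ => ?_,
    fun h => Vale.Agent.P129.H3.fullAnswer_of_extends.{u} h⟩
  obtain ⟨X, h1, h2, h3, hd, hX⟩ :=
    (densityAlephOne.{u} 𝕜).2 (Vale.Agent.P129.H3.nonMeagre_eq_of_CH hCH)
  exact ⟨X, h1, h2, h3, Vale.Agent.P129.H3.not_finite_of_dens hd, hX⟩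

end Vale.Agent.Results.P129.Undecidable
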